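import Vale.Agent.P084.Assemble

/-!
Tingley's problem for finite-dimensional spaces of dimension at least three whose norms are
three times continuously differentiable away from the origin, the target sphere being
positively curved.
-/

namespace Vale.Agent.Results.P084.SmoothTingley

open Metric Module

/-- Every surjective isometry between the unit spheres extends to a linear isometry onto. -/
theorem result {X Y : Type*} [NormedAddCommGroup X] [NormedSpace ℝ X] [FiniteDimensional ℝ X]
    [NormedAddCommGroup Y] [NormedSpace ℝ Y] [FiniteDimensional ℝ Y]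
    (hdim : 3 ≤ finrank ℝ X)
    (hXs : ContDiffOn ℝ 3 (norm : X → ℝ) {0}ᶜ)
    (hYs : ContDiffOn ℝ 3 (norm : Y → ℝ) {0}ᶜ)
    (hcurv : ∀ y : Y, ‖y‖ = 1 → ∀ v : Y, v ≠ 0 → fderiv ℝ (norm : Y → ℝ) y v = 0 →
      0 < fderiv ℝ (fderiv ℝ (norm : Y → ℝ)) y v v)
    (f : sphere (0:X) 1 → sphere (0:Y) 1) (hf : Isometry f) (hfs : Function.Surjective f) :
    ∃ T : X ≃ₗᵢ[ℝ] Y, ∀ x : sphere (0:X) 1, T (x : X) = (f x : Y) :=
  Vale.Agent.P084.tingley_smooth hdim hXs hYs hcurv f hf hfs

end Vale.Agent.Results.P084.SmoothTingley
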